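import Vale.Agent.P207.N4.Dim
import Vale.Agent.P207.N7.H340.NearQ
import Vale.Agent.P207.N7.H751.Fin
import Vale.Agent.P207.H732.NearK
import Vale.Agent.P207.H732.CSym

/-!
# P207, quarter pinching: the S-spaces of close leaves are close under the holonomy

`closeP` : for `e > 0` there are `ε > 0` and `C` such that for all pairs `x`, `ξ` with
`P.Nr ε x ξ`, the push forward by the derivative `A` of the holonomy at `0` of every `s ∈ P.Sm x`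
is at distance `≤ C ‖gr‖ ^ (1 - e) ‖s‖` of `P.Sm (L.hol ξ x)`.  Only `b < 2 a` is used.
-/

open Set Filter Topology Metric MeasureTheory
open scoped ContDiff

set_option linter.all false
set_option maxSynthPendingDepth 3

noncomputable section

namespace Vale.Agent.P207.N4.Y.H732

open Vale.Agent.P207.N3 Vale.Agent.P207.N4.H709 Vale.Agent.P207.H751 Vale.Agent.P207.H340
open Vale.Agent.P207.H686 Vale.Agent.P207.N4.H751 Vale.Agent.P207.N4.Y.H751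
open Vale.Agent.P207.N4.H751.Q4
open Vale.Agent.P207.H732 Vale.Agent.P207.N4.Y.H340

variable [Dim]

variable {Γ X B : Type} [Group Γ] [MetricSpace X] [ProperSpace X] [MulAction Γ X]
  [IsIsometricSMul Γ X] [TopologicalSpace B] [CompactSpace B] [T2Space B] [MulAction Γ B]
  [ContinuousConstSMul Γ B]

variable {L : Leaf Γ X B} [MeasurableSpace B] [BorelSpace B] {V : Type}
  [NormedAddCommGroup V] [NormedSpace ℝ V] [FiniteDimensional ℝ V]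

/-- **(CLOSE)** the S-spaces of close leaves are close under the derivative of the holonomy. -/
def CloseP (P : Pic L V) : Prop := ∀ e : ℝ, 0 < e → ∃ ε : ℝ, 0 < ε ∧ ∃ C : ℝ, ∀ x ξ,
  P.Nr ε x ξ → ∀ A : E2 ≃L[ℝ] E2, (A : E2 →L[ℝ] E2) = fderiv ℝ (P.hh x ξ) 0 →
    ∀ s ∈ P.Sm x, ∃ s' ∈ P.Sm (L.hol ξ x),
      ‖Pic.push A s - s'‖ ≤ C * ‖P.gr x ξ 0‖ ^ (1 - e) * ‖s‖

variable (P : Pic L V)

/-- Lemma Q at the centre of the disc of radius `1/2` -/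
theorem lemQk_of (hR : P.RateP) (hQ : LQat (pzd P hR)) : LemQk (pzd P hR) (1 / 2) := by
  intro e he M
  obtain ⟨C, -, hC⟩ := hQ e he (1 / 2) (1 / 4) (by norm_num) (by norm_num) M
  exact ⟨C, fun v σ F δ h1 h2 h3 h4 h5 h6 h7 =>
    hC v σ F δ h1 h2 h3 h4 h5 h6 h7 0 (mem_ball_self (by norm_num))⟩

/-- backwards: pull back from the leaf `ξ` -/
theorem close_back (hR : P.RateP) {ε₀ : ℝ} (hε₀ : 0 < ε₀) (h2d : P.T2d ε₀) (h2h : P.T2h ε₀)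
    (h3 : P.T3 ε₀) (hQ : LemQk (pzd P hR) (1 / 2)) {e : ℝ} (he : 0 < e) (he1 : e < 1) :
    ∃ C : ℝ, 0 ≤ C ∧ ∃ ε : ℝ, 0 < ε ∧ ∀ x ξ t, P.Nr ε x ξ → ‖P.gr x ξ 0‖ ≤ t → 0 < t → t ≤ ε →
      ∀ s ∈ (pzd P hR).Sm (L.hol ξ x), ∃ s' ∈ (pzd P hR).Sm x,
        ‖pb (fderiv ℝ (P.hh x ξ) 0) s - s'‖ ≤ C * t ^ (1 - e) * ‖s‖ := by
  obtain ⟨ε1, hε1, M, hM⟩ := nearK_of P hR hε₀ h2d h2h h3 (θ := 1 - e) (by linarith) (by linarith)
  obtain ⟨Cb, -, hCb⟩ := (pzd P hR).sm_bound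
  obtain ⟨C, hC0, t0, ht0, hC⟩ := near_dist_k (D := pzd P hR) (A := actF) (r := 1 / 2)
    (by norm_num) hQ hCb he he1 M
  refine ⟨C, hC0, min ε1 t0, lt_min hε1 ht0, fun x ξ t hn hgt ht htε s hs => ?_⟩
  obtain ⟨s', hs', h⟩ := hC (L.hol ξ x) x (fderiv ℝ (P.hh x ξ) 0) t ht
    (htε.trans (min_le_right _ _))
    (hM x ξ t ⟨hn.1, hn.2.trans (min_le_left _ _)⟩ hgt ht (htε.trans (min_le_left _ _))) s hs
  rw [actF_pull] at h
  exact ⟨s', hs', h⟩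

/-- the derivative of the holonomy is close to the identity -/
theorem hh_close {ε₀ : ℝ} (hε₀ : 0 < ε₀) (h3 : P.T3 ε₀) : ∃ ρ : ℝ, 0 < ρ ∧ ∀ x ξ, P.Nr ρ x ξ →
    ‖fderiv ℝ (P.hh x ξ) 0 - ContinuousLinearMap.id ℝ E2‖ ≤ 1 / 2 := by
  obtain ⟨ρ, hρ, H⟩ := H790.exists_fderiv_close P (ε := 1 / 4) (by norm_num)
  obtain ⟨C, hC⟩ := h3.2 (1 / 2) (by norm_num)
  set C' : ℝ := max C 1 with hC'
  have hC'1 : 1 ≤ C' := le_max_right _ _
  have hC'0 : 0 < C' := by linarith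
  set r : ℝ := (1 / (4 * C')) ^ 2 with hr
  have hr0 : 0 < r := by positivity
  refine ⟨min (min ρ ε₀) r, lt_min (lt_min hρ hε₀) hr0, fun x ξ hn => ?_⟩
  have h1 := H x ξ ⟨hn.1, hn.2.trans ((min_le_left _ _).trans (min_le_left _ _))⟩ 0
    (mem_closedBall_self (by norm_num))
  have h2 := hC x ξ ⟨hn.1, hn.2.trans ((min_le_left _ _).trans (min_le_right _ _))⟩ 0
    (mem_ball_self (by norm_num))
  have h4 : ‖P.gr x ξ 0‖ ^ (1 / 2 : ℝ) ≤ 1 / (4 * C') := by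
    have h5 : ‖P.gr x ξ 0‖ ≤ r := hn.2.trans (min_le_right _ _)
    calc ‖P.gr x ξ 0‖ ^ (1 / 2 : ℝ) ≤ r ^ (1 / 2 : ℝ) :=
          Real.rpow_le_rpow (norm_nonneg _) h5 (by norm_num)
      _ = 1 / (4 * C') := by
          rw [hr, ← Real.sqrt_eq_rpow, Real.sqrt_sq (by positivity)]
  have h5 : C * ‖P.gr x ξ 0‖ ^ (1 / 2 : ℝ) ≤ 1 / 4 := by
    have h6 : 0 ≤ ‖P.gr x ξ 0‖ ^ (1 / 2 : ℝ) := by positivity
    calc C * ‖P.gr x ξ 0‖ ^ (1 / 2 : ℝ) ≤ C' * ‖P.gr x ξ 0‖ ^ (1 / 2 : ℝ) :=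
          mul_le_mul_of_nonneg_right (le_max_left _ _) h6
      _ ≤ C' * (1 / (4 * C')) := mul_le_mul_of_nonneg_left h4 hC'0.le
      _ = 1 / 4 := by field_simp
  calc ‖fderiv ℝ (P.hh x ξ) 0 - ContinuousLinearMap.id ℝ E2‖
      = ‖(fderiv ℝ (P.hh x ξ) 0 - fderiv ℝ (P.Aq x ξ) 0) +
          (fderiv ℝ (P.Aq x ξ) 0 - ContinuousLinearMap.id ℝ E2)‖ := by congr 1; abel
    _ ≤ 1 / 4 + 1 / 4 := (norm_add_le _ _).trans (add_le_add (h2.trans h5) h1.le)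
    _ = 1 / 2 := by norm_num

/-- a linear equivalence close to the identity: the inverse has norm `≤ 2` -/
theorem symm_norm_le {A : E2 ≃L[ℝ] E2}
    (h : ‖(A : E2 →L[ℝ] E2) - ContinuousLinearMap.id ℝ E2‖ ≤ 1 / 2) :
    ‖(A.symm : E2 →L[ℝ] E2)‖ ≤ 2 := by
  refine ContinuousLinearMap.opNorm_le_bound _ (by norm_num) fun v => ?_
  have h1 : ‖A (A.symm v) - A.symm v‖ ≤ 1 / 2 * ‖A.symm v‖ :=
    (((A : E2 →L[ℝ] E2) - ContinuousLinearMap.id ℝ E2).le_opNorm (A.symm v)).trans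
      (mul_le_mul_of_nonneg_right h (norm_nonneg _))
  rw [A.apply_symm_apply] at h1
  have h2 : ‖A.symm v‖ ≤ ‖v‖ + ‖v - A.symm v‖ := by
    calc ‖A.symm v‖ = ‖v - (v - A.symm v)‖ := by congr 1; abel
      _ ≤ _ := norm_sub_le _ _
  show ‖A.symm v‖ ≤ 2 * ‖v‖
  linarith

/-- forwards, with a parameter `t ≥ ‖gr‖` -/
theorem close_fwd (hR : P.RateP) {ε₀ : ℝ} (hε₀ : 0 < ε₀) (h2d : P.T2d ε₀) (h2h : P.T2h ε₀)
    (h3 : P.T3 ε₀) (hQ : LemQk (pzd P hR) (1 / 2)) {e : ℝ} (he : 0 < e) (he1 : e < 1) :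
    ∃ C : ℝ, 0 ≤ C ∧ ∃ ε : ℝ, 0 < ε ∧ ∀ x ξ t, P.Nr ε x ξ → ‖P.gr x ξ 0‖ ≤ t → 0 < t → t ≤ ε →
      ∀ A : E2 ≃L[ℝ] E2, (A : E2 →L[ℝ] E2) = fderiv ℝ (P.hh x ξ) 0 →
        ∀ s ∈ (pzd P hR).Sm x, ∃ s' ∈ (pzd P hR).Sm (L.hol ξ x),
          ‖act A s - s'‖ ≤ C * t ^ (1 - e) * ‖s‖ := by
  obtain ⟨C, hC0, ε1, hε1, hC⟩ := close_back P hR hε₀ h2d h2h h3 hQ he he1
  obtain ⟨ρ, hρ, hcl⟩ := hh_close P hε₀ h3
  obtain ⟨c, hc1, hc⟩ := close_symm (Fm E2)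
  have hc0 : 0 < c := by linarith
  have h1e : 0 < 1 - e := by linarith
  -- a small radius
  obtain ⟨r, hr0, hr⟩ : ∃ r : ℝ, 0 < r ∧ c * (4 * C * r ^ (1 - e)) ≤ 1 / 2 := by
    set D : ℝ := c * (4 * C) + 1 with hD
    have hD0 : 0 < D := by positivity
    refine ⟨(1 / (2 * D)) ^ (1 - e)⁻¹, by positivity, ?_⟩
    rw [Real.rpow_inv_rpow (by positivity) h1e.ne']
    calc c * (4 * C * (1 / (2 * D))) = (c * (4 * C)) * (1 / (2 * D)) := by ring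
      _ ≤ D * (1 / (2 * D)) := mul_le_mul_of_nonneg_right (by rw [hD]; linarith) (by positivity)
      _ = 1 / 2 := by field_simp
  refine ⟨4 * (2 * c * (4 * C)), by positivity, min (min ε1 ρ) r, lt_min (lt_min hε1 hρ) hr0,
    fun x ξ t hn hgt ht htε A hA s hs => ?_⟩
  have hn1 : P.Nr ε1 x ξ := ⟨hn.1, hn.2.trans ((min_le_left _ _).trans (min_le_left _ _))⟩
  have hAs : ‖(A.symm : E2 →L[ℝ] E2)‖ ≤ 2 := symm_norm_le (by
    rw [hA]
    exact hcl x ξ ⟨hn.1, hn.2.trans ((min_le_left _ _).trans (min_le_right _ _))⟩)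
  have hact : ∀ u : Fm E2, ‖act A u‖ ≤ 4 * ‖u‖ := fun u => by
    refine (act_norm A u).trans (mul_le_mul_of_nonneg_right ?_ (norm_nonneg _))
    calc ‖(A.symm : E2 →L[ℝ] E2)‖ ^ 2 ≤ 2 ^ 2 := by gcongr
      _ = 4 := by norm_num
  have hpbs : ∀ u : Fm E2, (act A).symm u = pb (fderiv ℝ (P.hh x ξ) 0) u := fun u => by
    rw [← hA]
    rfl
  set S : Submodule ℝ (Fm E2) := (pzd P hR).Sm x with hS
  set S1 : Submodule ℝ (Fm E2) := (pzd P hR).Sm (L.hol ξ x) with hS1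
  set S' : Submodule ℝ (Fm E2) := S1.map ((act A).symm.toLinearEquiv : Fm E2 →ₗ[ℝ] Fm E2)
    with hS'
  have hrank : Module.finrank ℝ S' = Module.finrank ℝ S := by
    rw [hS', LinearEquiv.finrank_map_eq]
    exact (pzd P hR).sm_rank _ _
  have hte : t ^ (1 - e) ≤ r ^ (1 - e) :=
    Real.rpow_le_rpow ht.le (htε.trans (min_le_right _ _)) h1e.le
  have hte0 : 0 ≤ t ^ (1 - e) := by positivity
  obtain ⟨s', hs', hle⟩ := hc S S' hrank (4 * C * t ^ (1 - e)) (by positivity) (by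
    refine le_trans ?_ hr
    gcongr) (by
    intro s' hs'
    rw [hS', Submodule.mem_map] at hs'
    obtain ⟨s1, hs1, rfl⟩ := hs'
    obtain ⟨s0, h1, h2⟩ := hC x ξ t hn1 hgt ht
      (htε.trans ((min_le_left _ _).trans (min_le_left _ _))) s1 hs1
    refine ⟨s0, h1, ?_⟩
    have e1 : (((act A).symm.toLinearEquiv : Fm E2 →ₗ[ℝ] Fm E2) s1) =
      pb (fderiv ℝ (P.hh x ξ) 0) s1 := hpbs s1
    have e2 : ‖s1‖ ≤ 4 * ‖((act A).symm.toLinearEquiv : Fm E2 →ₗ[ℝ] Fm E2) s1‖ := by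
      have h5 := hact ((act A).symm s1)
      rw [ContinuousLinearEquiv.apply_symm_apply] at h5
      exact h5
    calc ‖((act A).symm.toLinearEquiv : Fm E2 →ₗ[ℝ] Fm E2) s1 - s0‖
        ≤ C * t ^ (1 - e) * ‖s1‖ := by rw [e1]; exact h2
      _ ≤ C * t ^ (1 - e) *
          (4 * ‖((act A).symm.toLinearEquiv : Fm E2 →ₗ[ℝ] Fm E2) s1‖) := by gcongr
      _ = _ := by ring) s hs
  rw [hS', Submodule.mem_map] at hs'
  obtain ⟨s1, hs1, rfl⟩ := hs'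
  refine ⟨s1, hs1, ?_⟩
  have e3 : act A s - s1 =
      act A (s - ((act A).symm.toLinearEquiv : Fm E2 →ₗ[ℝ] Fm E2) s1) := by
    rw [map_sub]
    congr 1
    exact ((act A).apply_symm_apply s1).symm
  rw [e3]
  calc ‖act A (s - ((act A).symm.toLinearEquiv : Fm E2 →ₗ[ℝ] Fm E2) s1)‖
      ≤ 4 * ‖s - ((act A).symm.toLinearEquiv : Fm E2 →ₗ[ℝ] Fm E2) s1‖ := hact _
    _ ≤ 4 * (2 * c * (4 * C * t ^ (1 - e)) * ‖s‖) := by gcongr
    _ = 4 * (2 * c * (4 * C)) * t ^ (1 - e) * ‖s‖ := by ring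

/-- **(CLOSE)** from Lemma Q of the zoom data -/
theorem closeP_of (hR : P.RateP) {ε₀ : ℝ} (hε₀ : 0 < ε₀) (h2d : P.T2d ε₀) (h2h : P.T2h ε₀)
    (h3 : P.T3 ε₀) (hQ : LemQk (pzd P hR) (1 / 2)) : CloseP P := by
  intro e he
  set e1 : ℝ := min e (1 / 2) with he1
  have he10 : 0 < e1 := lt_min he (by norm_num)
  have he11 : e1 < 1 := lt_of_le_of_lt (min_le_right _ _) (by norm_num)
  have hee : 1 - e ≤ 1 - e1 := by
    have := min_le_left e (1 / 2 : ℝ)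
    rw [he1]
    linarith
  obtain ⟨C, hC0, ε, hε, hC⟩ := close_fwd P hR hε₀ h2d h2h h3 hQ he10 he11
  refine ⟨min ε 1, lt_min hε one_pos, C, fun x ξ hn A hA s hs => ?_⟩
  have hn1 : P.Nr ε x ξ := ⟨hn.1, hn.2.trans (min_le_left _ _)⟩
  have hs1 := (mem_Sm_iff P hR x s).1 hs
  rcases (norm_nonneg (P.gr x ξ 0)).eq_or_lt with h0 | h0
  · -- the gradient vanishes: the push forward is in the space, which is closed
    have hmem : act A (fo s) ∈ (pzd P hR).Sm (L.hol ξ x) := by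
      have hclo : IsClosed (((pzd P hR).Sm (L.hol ξ x) : Submodule ℝ (Fm E2)) : Set (Fm E2)) :=
        Submodule.closed_of_finiteDimensional _
      rw [← SetLike.mem_coe, ← hclo.closure_eq, Metric.mem_closure_iff]
      intro η hη
      have ht : Tendsto (fun t : ℝ => C * t ^ (1 - e1) * ‖fo s‖) (𝓝[>] 0) (𝓝 0) := by
        have h1 : Tendsto (fun t : ℝ => t ^ (1 - e1)) (𝓝[>] 0) (𝓝 0) := by
          have h2 := (Real.continuousAt_rpow_const 0 (1 - e1) (Or.inr (by linarith))).tendsto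
          rw [Real.zero_rpow (by linarith : (1 - e1) ≠ 0)] at h2
          exact h2.mono_left nhdsWithin_le_nhds
        have h3 := (h1.const_mul C).mul_const ‖fo s‖
        rwa [mul_zero, zero_mul] at h3
      obtain ⟨t, ht1, ht2, ht3⟩ : ∃ t : ℝ, 0 < t ∧ t ≤ ε ∧ C * t ^ (1 - e1) * ‖fo s‖ < η := by
        have h1 : ∀ᶠ t : ℝ in 𝓝[>] 0, C * t ^ (1 - e1) * ‖fo s‖ < η :=
          ht.eventually (gt_mem_nhds hη)
        have h2 : ∀ᶠ t : ℝ in 𝓝[>] 0, t < ε := nhdsWithin_le_nhds (gt_mem_nhds hε)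
        obtain ⟨t, ht⟩ := (h1.and (h2.and self_mem_nhdsWithin)).exists
        exact ⟨t, ht.2.2, ht.2.1.le, ht.1⟩
      obtain ⟨s', hs', h⟩ := hC x ξ t hn1 (by rw [← h0]; exact ht1.le) ht1 ht2 A hA (fo s) hs1
      exact ⟨s', hs', by rw [dist_eq_norm]; exact h.trans_lt ht3⟩
    refine ⟨Pic.push A s, (mem_Sm_iff P hR _ _).2 ?_, ?_⟩
    · have e2 : fo (Pic.push A s) = act A (fo s) := fo_push A s
      rw [e2]
      exact hmem
    · rw [sub_self, norm_zero]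
      positivity
  · obtain ⟨s', hs', h⟩ := hC x ξ (‖P.gr x ξ 0‖) hn1 le_rfl h0 hn1.2 A hA (fo s) hs1
    obtain ⟨s2, rfl⟩ := fo_surj s'
    refine ⟨s2, (mem_Sm_iff P hR _ _).2 hs', ?_⟩
    have e2 : fo (Pic.push A s) = act A (fo s) := fo_push A s
    rw [← e2, ← map_sub, fo_norm, fo_norm] at h
    refine h.trans (mul_le_mul_of_nonneg_right (mul_le_mul_of_nonneg_left ?_ hC0) (norm_nonneg _))
    exact Real.rpow_le_rpow_of_exponent_ge h0 (hn.2.trans (min_le_right _ _)) hee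

/-- **(CLOSE)** over the picture; Lemma Q and the rates are theorems -/
theorem closeP {ε₀ : ℝ} (hε₀ : 0 < ε₀) (h2d : P.T2d ε₀) (h2h : P.T2h ε₀) (h3 : P.T3 ε₀) :
    CloseP P :=
  closeP_of P (H832.rateP P) hε₀ h2d h2h h3
    (lemQk_of P (H832.rateP P) (lqat P (H832.rateP P)))

end Vale.Agent.P207.N4.Y.H732
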